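import Vale.Agent.P043.T2.Defs

/-! # P043 in the plane: exact tilings of `R x Z` by all row types (row TIL) -/

namespace Vale.Agent.P043.T2.H353

open Vale.Agent.P043.T2

theorem kap_add (a b : ℤ) : kap (a + b) = kap a + kap b := by
  simp [kap]

theorem kap_sub (a b : ℤ) : kap (a - b) = kap a - kap b := by
  simp [kap]

theorem kap_one : kap 1 = s0 + s1 := by
  simp [kap, s0, s1]

theorem kap_big (z : ℤ) : kap (44100 * z) = 0 := by
  have e1 : (44100 : ZMod 4) = 0 := by decide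
  have e2 : (44100 : ZMod 9) = 0 := by decide
  have e3 : (44100 : ZMod 25) = 0 := by decide
  have e4 : (44100 : ZMod 49) = 0 := by decide
  simp only [kap]
  push_cast
  rw [e1, e2, e3, e4]
  simp

theorem kap_dvd {j : ℤ} (h : kap j = 0) : (44100 : ℤ) ∣ j := by
  simp only [kap, Prod.mk_eq_zero] at h
  obtain ⟨h1, h2, h3, h4⟩ := h
  have g1 := (ZMod.intCast_zmod_eq_zero_iff_dvd j 4).1 h1
  have g2 := (ZMod.intCast_zmod_eq_zero_iff_dvd j 9).1 h2
  have g3 := (ZMod.intCast_zmod_eq_zero_iff_dvd j 25).1 h3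
  have g4 := (ZMod.intCast_zmod_eq_zero_iff_dvd j 49).1 h4
  push_cast at g1 g2 g3 g4
  have c1 : (4 * 9 : ℤ) ∣ j := IsCoprime.mul_dvd (by norm_num [Int.isCoprime_iff_gcd_eq_one]) g1 g2
  have c2 : (4 * 9 * 25 : ℤ) ∣ j :=
    IsCoprime.mul_dvd (by norm_num [Int.isCoprime_iff_gcd_eq_one]) c1 g3
  have c3 : (4 * 9 * 25 * 49 : ℤ) ∣ j :=
    IsCoprime.mul_dvd (by norm_num [Int.isCoprime_iff_gcd_eq_one]) c2 g4
  norm_num at c3
  exact c3

theorem exj (κ : K) : ∃ j : ℤ, (0 ≤ j ∧ j < 44100) ∧ kap j = κ := by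
  obtain ⟨a, b, c, d⟩ := κ
  have e11 : (11025 : ZMod 4) = 1 := by decide
  have e12 : (34300 : ZMod 4) = 0 := by decide
  have e13 : (15876 : ZMod 4) = 0 := by decide
  have e14 : (27000 : ZMod 4) = 0 := by decide
  have e21 : (11025 : ZMod 9) = 0 := by decide
  have e22 : (34300 : ZMod 9) = 1 := by decide
  have e23 : (15876 : ZMod 9) = 0 := by decide
  have e24 : (27000 : ZMod 9) = 0 := by decide
  have e31 : (11025 : ZMod 25) = 0 := by decide
  have e32 : (34300 : ZMod 25) = 0 := by decide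
  have e33 : (15876 : ZMod 25) = 1 := by decide
  have e34 : (27000 : ZMod 25) = 0 := by decide
  have e41 : (11025 : ZMod 49) = 0 := by decide
  have e42 : (34300 : ZMod 49) = 0 := by decide
  have e43 : (15876 : ZMod 49) = 0 := by decide
  have e44 : (27000 : ZMod 49) = 1 := by decide
  set j0 : ℤ := 11025 * (a.val : ℤ) + 34300 * (b.val : ℤ) + 15876 * (c.val : ℤ) +
    27000 * (d.val : ℤ) with hj0
  have hk : kap j0 = (a, b, c, d) := by
    simp only [kap, hj0]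
    push_cast
    rw [e11, e12, e13, e14, e21, e22, e23, e24, e31, e32, e33, e34, e41, e42, e43, e44]
    simp
  refine ⟨j0 % 44100, ⟨Int.emod_nonneg _ (by norm_num), Int.emod_lt_of_pos _ (by norm_num)⟩, ?_⟩
  rw [Int.emod_def, kap_sub, kap_big, sub_zero, hk]

theorem uniqj {j j' : ℤ} (h : kap j = kap j') (h0 : 0 ≤ j) (h1 : j < 44100) (h0' : 0 ≤ j')
    (h1' : j' < 44100) : j = j' := by
  have := kap_dvd (j := j - j') (by rw [kap_sub, h, sub_self])
  omega

theorem mem_Eb {τ : Bool} {t c c' : ℝ} {i : Ix} {u : ℝ} :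
    u ∈ Eb τ t c c' i ↔ 0 ≤ ⌊44100 * u⌋ ∧ ⌊44100 * u⌋ < 44100 ∧
      kap ⌊44100 * u⌋ = sh τ i + (if fy u < c' then s1 else 0) +
        (if fy u < c + (row τ i : ℝ) * t then s0 else 0) := by
  have h1 : 0 ≤ u ↔ 0 ≤ ⌊44100 * u⌋ := by
    rw [Int.floor_nonneg]
    constructor
    · intro h; positivity
    · intro h; linarith
  have h2 : u < 1 ↔ ⌊44100 * u⌋ < 44100 := by
    rw [Int.floor_lt]
    push_cast
    constructor
    · intro h; linarith
    · intro h; linarith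
  simp only [Eb, Set.mem_ofPred_eq, h1, h2]

theorem floor_shift (v : ℝ) (h : ℤ) : ⌊44100 * (v - (h : ℝ) / 44100)⌋ = ⌊44100 * v⌋ - h := by
  rw [← Int.floor_sub_intCast]
  congr 1
  ring

theorem fy_shift (v : ℝ) (h : ℤ) : fy (v - (h : ℝ) / 44100) = fy v := by
  unfold fy
  rw [floor_shift]
  push_cast
  ring

theorem mem_Eb' {τ : Bool} {t c c' : ℝ} {i : Ix} {v : ℝ} {h : ℤ} :
    v - (h : ℝ) / 44100 ∈ Eb τ t c c' i ↔ 0 ≤ ⌊44100 * v⌋ - h ∧ ⌊44100 * v⌋ - h < 44100 ∧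
      kap (⌊44100 * v⌋ - h) = sh τ i + (if fy v < c' then s1 else 0) +
        (if fy v < c + (row τ i : ℝ) * t then s0 else 0) := by
  rw [mem_Eb, floor_shift, fy_shift]

theorem exists_h (τ : Bool) (t c c' : ℝ) (i : Ix) (v : ℝ) :
    ∃ h : ℤ, v - (h : ℝ) / 44100 ∈ Eb τ t c c' i := by
  obtain ⟨j, ⟨hj0, hj1⟩, hj⟩ := exj (sh τ i + (if fy v < c' then s1 else 0) +
        (if fy v < c + (row τ i : ℝ) * t then s0 else 0))
  refine ⟨⌊44100 * v⌋ - j, ?_⟩
  rw [mem_Eb', sub_sub_cancel]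
  exact ⟨hj0, hj1, hj⟩

theorem unique_h {τ : Bool} {t c c' : ℝ} {i : Ix} {v : ℝ} {h h' : ℤ}
    (h1 : v - (h : ℝ) / 44100 ∈ Eb τ t c c' i) (h2 : v - (h' : ℝ) / 44100 ∈ Eb τ t c c' i) :
    h = h' := by
  rw [mem_Eb'] at h1 h2
  have := uniqj (h1.2.2.trans h2.2.2.symm) h1.1 h1.2.1 h2.1 h2.2.1
  omega

theorem zinv {A : Set (K × K)} {s : K} (hA : ∀ h r, (h + s, r) ∈ A ↔ (h, r) ∈ A) (z : ℤ) :
    ∀ h r, (h + z • s, r) ∈ A ↔ (h, r) ∈ A := by
  induction z using Int.induction_on with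
  | zero => intro h r; simp
  | succ n ih => intro h r; rw [add_zsmul, one_zsmul, ← add_assoc, hA, ih]
  | pred n ih =>
    intro h r
    rw [sub_zsmul, one_zsmul, ← hA (h + _) r]
    rw [show h + (-(n : ℤ) • s + -s) + s = h + (-(n : ℤ)) • s by abel]
    exact ih h r

theorem row_bd (τ : Bool) (i : Ix) : 0 ≤ row τ i ∧ row τ i ≤ 2000000 := by
  obtain ⟨⟨a, ha⟩, ⟨b, hb⟩, ⟨c, hc⟩, ⟨d, hd⟩⟩ := i
  cases τ <;> simp only [row] <;> norm_num <;> constructor <;> omega

theorem claim0 {A0 : Set (K × K)} (hA : ∀ h r, (h + s0, r) ∈ A0 ↔ (h, r) ∈ A0)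
    {τ : Bool} {t c c' : ℝ} {i : Ix} {x : ℝ} {h : ℤ} (hm : x - (h : ℝ) / 44100 ∈ Eb τ t c c' i)
    (r : K) : (kap h, r) ∈ A0 ↔
      (kap ⌊44100 * x⌋ - (if fy x < c' then s1 else 0) - sh τ i, r) ∈ A0 := by
  rw [mem_Eb', kap_sub] at hm
  have h3 := hm.2.2
  by_cases hc : fy x < c + (row τ i : ℝ) * t
  · rw [if_pos hc] at h3
    rw [← hA (kap h) r]
    have : kap h + s0 = kap ⌊44100 * x⌋ - (if fy x < c' then s1 else 0) - sh τ i := by
      rw [sub_eq_iff_eq_add] at h3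
      rw [h3]
      abel
    rw [this]
  · rw [if_neg hc] at h3
    have : kap h = kap ⌊44100 * x⌋ - (if fy x < c' then s1 else 0) - sh τ i := by
      rw [sub_eq_iff_eq_add] at h3
      rw [h3]
      abel
    rw [this]

theorem fy_nonneg (x : ℝ) : 0 ≤ fy x := by
  unfold fy
  have := Int.floor_le (44100 * x)
  have h2 : (⌊44100 * x⌋ : ℝ) / 44100 ≤ x := by
    rw [div_le_iff₀ (by norm_num)]
    linarith
  linarith

theorem fy_lt (x : ℝ) : fy x < 1 / 44100 := by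
  unfold fy
  have := Int.lt_floor_add_one (44100 * x)
  have h2 : x < ((⌊44100 * x⌋ : ℝ) + 1) / 44100 := by
    rw [lt_div_iff₀ (by norm_num)]
    linarith
  have h3 : ((⌊44100 * x⌋ : ℝ) + 1) / 44100 = (⌊44100 * x⌋ : ℝ) / 44100 + 1 / 44100 := by ring
  linarith

theorem eq_floor_fy (x : ℝ) : x = (⌊44100 * x⌋ : ℝ) / 44100 + fy x := by
  unfold fy; ring

theorem claim1 {A1 : Set (K × K)} (hA : ∀ h r, (h + s1, r) ∈ A1 ↔ (h, r) ∈ A1)
    {τ : Bool} {t c c' : ℝ} (ht0 : 0 < t) (ht : t * 2000000 < al / 2) (hc0 : 0 ≤ c)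
    (hc1 : c ≤ 2 * al) {i : Ix} {x' : ℝ} {h : ℤ}
    (hm : x' + (row τ i : ℝ) * t - (h : ℝ) / 44100 ∈ Eb τ t c c' i) (r : K) :
    (kap h, r) ∈ A1 ↔
      (kap ⌊44100 * x'⌋ - (if fy x' < c then s0 else 0) - sh τ i, r) ∈ A1 := by
  have hr0 : 0 ≤ (row τ i : ℝ) * t := by
    have := (row_bd τ i).1
    have : (0 : ℝ) ≤ (row τ i : ℝ) := by exact_mod_cast this
    positivity
  have hr1 : (row τ i : ℝ) * t < al / 2 := by
    have := (row_bd τ i).2
    have h2 : (row τ i : ℝ) ≤ 2000000 := by exact_mod_cast this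
    calc (row τ i : ℝ) * t ≤ 2000000 * t := by gcongr
      _ = t * 2000000 := by ring
      _ < al / 2 := ht
  set ρ : ℝ := (row τ i : ℝ) * t with hρ
  have hal : al = 1 / 132300 := rfl
  have hy0 := fy_nonneg x'
  have hy1 := fy_lt x'
  have hx := eq_floor_fy x'
  set N : ℤ := ⌊44100 * x'⌋ with hN
  set y : ℝ := fy x' with hy
  rw [mem_Eb', kap_sub] at hm
  have h3 := hm.2.2
  rw [← hρ] at h3
  -- it suffices to find an integer multiple of s1
  have key : ∃ z : ℤ, kap h = kap N - (if y < c then s0 else 0) - sh τ i + z • s1 := by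
    by_cases hk : y + ρ < 1 / 44100
    · have hfl : ⌊44100 * (x' + ρ)⌋ = N := by
        rw [Int.floor_eq_iff]
        constructor
        · rw [hx]; linarith
        · rw [hx]; linarith
      have hfy : fy (x' + ρ) = y + ρ := by
        unfold fy
        rw [hfl]
        linarith
      rw [hfl, hfy] at h3
      have hiff : (y + ρ < c + ρ) ↔ y < c := by
        constructor <;> intro h <;> linarith
      simp only [hiff] at h3
      by_cases hc' : y + ρ < c'
      · refine ⟨-1, ?_⟩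
        rw [if_pos hc'] at h3
        rw [sub_eq_iff_eq_add] at h3
        rw [h3]
        simp only [neg_smul, one_smul]
        abel
      · refine ⟨0, ?_⟩
        rw [if_neg hc'] at h3
        rw [sub_eq_iff_eq_add] at h3
        rw [h3]
        simp only [zero_smul]
        abel
    · push Not at hk
      have hfl : ⌊44100 * (x' + ρ)⌋ = N + 1 := by
        rw [Int.floor_eq_iff]
        push_cast
        constructor
        · rw [hx]; linarith
        · rw [hx]; linarith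
      have hfy : fy (x' + ρ) = y + ρ - 1 / 44100 := by
        unfold fy
        rw [hfl]
        push_cast
        linarith
      have hyc : ¬ y < c := by
        rw [not_lt]
        linarith
      have hcc : y + ρ - 1 / 44100 < c + ρ := by linarith
      rw [hfl, hfy, if_pos hcc, kap_add, kap_one] at h3
      rw [if_neg hyc]
      by_cases hc' : y + ρ - 1 / 44100 < c'
      · refine ⟨0, ?_⟩
        rw [if_pos hc'] at h3
        rw [sub_eq_iff_eq_add] at h3
        have h4 : kap N = sh τ i + s1 + s0 + kap h - (s0 + s1) := by rw [← h3]; abel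
        rw [h4]
        simp only [zero_smul]
        abel
      · refine ⟨1, ?_⟩
        rw [if_neg hc'] at h3
        rw [sub_eq_iff_eq_add] at h3
        have h4 : kap N = sh τ i + 0 + s0 + kap h - (s0 + s1) := by rw [← h3]; abel
        rw [h4]
        simp only [one_smul]
        abel
  obtain ⟨z, hz⟩ := key
  rw [hz]
  exact zinv hA z _ _

/-- the translation set -/
def AA (t : ℝ) (A0 A1 : Set (K × K)) : Set (ℝ × ℤ) :=
  {p | (∃ h : ℤ, p.1 = (h : ℝ) / 44100 ∧ (kap h, kap p.2) ∈ A0) ∨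
    (∃ h : ℤ, p.1 = (h : ℝ) / 44100 + (p.2 : ℝ) * t ∧ (kap h, kap p.2) ∈ A1)}

theorem AA_per {t : ℝ} {A0 A1 : Set (K × K)} (a : ℝ) (m : ℤ) :
    (a + 1, m) ∈ AA t A0 A1 ↔ (a, m) ∈ AA t A0 A1 := by
  have hk : ∀ h : ℤ, kap (h + 44100) = kap h := by
    intro h
    have := kap_big 1
    rw [mul_one] at this
    rw [kap_add, this, add_zero]
  have hk' : ∀ h : ℤ, kap (h - 44100) = kap h := by
    intro h
    have := kap_big 1
    rw [mul_one] at this
    rw [kap_sub, this, sub_zero]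
  simp only [AA, Set.mem_ofPred_eq]
  constructor
  · rintro (⟨h, h1, h2⟩ | ⟨h, h1, h2⟩)
    · refine Or.inl ⟨h - 44100, ?_, by rw [hk']; exact h2⟩
      push_cast
      linarith
    · refine Or.inr ⟨h - 44100, ?_, by rw [hk']; exact h2⟩
      push_cast
      linarith
  · rintro (⟨h, h1, h2⟩ | ⟨h, h1, h2⟩)
    · refine Or.inl ⟨h + 44100, ?_, by rw [hk]; exact h2⟩
      push_cast
      linarith
    · refine Or.inr ⟨h + 44100, ?_, by rw [hk]; exact h2⟩
      push_cast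
      linarith

theorem main {A0 A1 : Set (K × K)} {X : Bool → Set K}
    (F1 : ∀ h r, (h + s0, r) ∈ A0 ↔ (h, r) ∈ A0) (F2 : ∀ h r, (h + s1, r) ∈ A1 ↔ (h, r) ∈ A1)
    (F3 : ∀ τ h r, r ∈ X τ → ∃! i : Ix, (h - sh τ i, r - kap (row τ i)) ∈ A0)
    (F4 : ∀ τ h r, r ∉ X τ → ∀ i : Ix, (h - sh τ i, r - kap (row τ i)) ∉ A0)
    (F5 : ∀ τ h r, r ∉ X τ → ∃! i : Ix, (h - sh τ i, r - kap (row τ i)) ∈ A1)
    (F6 : ∀ τ h r, r ∈ X τ → ∀ i : Ix, (h - sh τ i, r - kap (row τ i)) ∉ A1)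
    (τ : Bool) {t c : ℝ} (c' : ℝ) (ht0 : 0 < t) (ht : t * 2000000 < al / 2) (hc0 : 0 ≤ c)
    (hc1 : c ≤ 2 * al) (x : ℝ) (n : ℤ) :
    ∃! q : (ℝ × ℤ) × Ix, q.1 ∈ AA t A0 A1 ∧ q.1.2 + row τ q.2 = n ∧
      x - q.1.1 ∈ Eb τ t c c' q.2 := by
  set G0 : K := kap ⌊44100 * x⌋ - (if fy x < c' then s1 else 0) with hG0
  set x' : ℝ := x - (n : ℝ) * t with hx'
  set G1 : K := kap ⌊44100 * x'⌋ - (if fy x' < c then s0 else 0) with hG1
  have C0 : ∀ (i : Ix) (h : ℤ), x - (h : ℝ) / 44100 ∈ Eb τ t c c' i → ∀ r,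
      ((kap h, r) ∈ A0 ↔ (G0 - sh τ i, r) ∈ A0) := fun i h hm r => claim0 F1 hm r
  have e1 : ∀ (i : Ix) (h m : ℤ), m + row τ i = n →
      x - ((h : ℝ) / 44100 + (m : ℝ) * t) = x' + (row τ i : ℝ) * t - (h : ℝ) / 44100 := by
    intro i h m hm
    have : (n : ℝ) = (m : ℝ) + (row τ i : ℝ) := by exact_mod_cast hm.symm
    rw [hx', this]
    ring
  have C1 : ∀ (i : Ix) (h m : ℤ), m + row τ i = n →
      x - ((h : ℝ) / 44100 + (m : ℝ) * t) ∈ Eb τ t c c' i → ∀ r,
      ((kap h, r) ∈ A1 ↔ (G1 - sh τ i, r) ∈ A1) := by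
    intro i h m hm hmem r
    rw [e1 i h m hm] at hmem
    exact claim1 F2 ht0 ht hc0 hc1 hmem r
  have ek : ∀ (i : Ix) (m : ℤ), m + row τ i = n → kap m = kap n - kap (row τ i) := by
    intro i m hm
    rw [← kap_sub, ← hm, add_sub_cancel_right]
  by_cases hX : kap n ∈ X τ
  · obtain ⟨i, hi, hu⟩ := F3 τ G0 (kap n) hX
    obtain ⟨h, hh⟩ := exists_h τ t c c' i x
    refine ⟨(((h : ℝ) / 44100, n - row τ i), i), ⟨Or.inl ⟨h, rfl, ?_⟩, by simp, hh⟩, ?_⟩
    · change (kap h, kap (n - row τ i)) ∈ A0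
      rw [C0 i h hh, kap_sub]
      exact hi
    · rintro ⟨⟨a, m⟩, i'⟩ ⟨hA, hm, hE⟩
      simp only at hm hE
      rcases hA with ⟨h', h1, h2⟩ | ⟨h', h1, h2⟩
      · simp only at h1 h2
        subst h1
        rw [C0 i' h' hE, ek i' m hm] at h2
        have hii : i' = i := hu i' h2
        subst hii
        have hhh : h' = h := unique_h hE hh
        subst hhh
        have : m = n - row τ i' := by linarith
        rw [this]
      · simp only at h1 h2
        subst h1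
        rw [C1 i' h' m hm hE, ek i' m hm] at h2
        exact absurd h2 (F6 τ G1 (kap n) hX i')
  · obtain ⟨i, hi, hu⟩ := F5 τ G1 (kap n) hX
    obtain ⟨h, hh⟩ := exists_h τ t c c' i (x' + (row τ i : ℝ) * t)
    have hrow : (n - row τ i) + row τ i = n := by ring
    have hh' := hh
    rw [← e1 i h (n - row τ i) hrow] at hh'
    refine ⟨(((h : ℝ) / 44100 + ((n - row τ i : ℤ) : ℝ) * t, n - row τ i), i),
      ⟨Or.inr ⟨h, rfl, ?_⟩, by simp, hh'⟩, ?_⟩
    · change (kap h, kap (n - row τ i)) ∈ A1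
      rw [C1 i h _ hrow hh', kap_sub]
      exact hi
    · rintro ⟨⟨a, m⟩, i'⟩ ⟨hA, hm, hE⟩
      simp only at hm hE
      rcases hA with ⟨h', h1, h2⟩ | ⟨h', h1, h2⟩
      · simp only at h1 h2
        subst h1
        rw [C0 i' h' hE, ek i' m hm] at h2
        exact absurd h2 (F4 τ G0 (kap n) hX i')
      · simp only at h1 h2
        subst h1
        have hE' := hE
        rw [C1 i' h' m hm hE, ek i' m hm] at h2
        have hii : i' = i := hu i' h2
        subst hii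
        rw [e1 i' h' m hm] at hE'
        have hhh : h' = h := unique_h hE' hh
        subst hhh
        have : m = n - row τ i' := by linarith
        rw [this]

theorem al_pos : 0 < al := by unfold al; norm_num

/-- (TIL) -/
theorem st_til : StTil := by
  rintro ⟨A0, A1, X, F1, F2, F3, F4, F5, F6⟩ t ht0 ht
  refine ⟨AA t A0 A1, ?_⟩
  have hal := al_pos
  intro k x n
  have H0 := main F1 F2 F3 F4 F5 F6 true (c := al) 0 ht0 ht hal.le (by linarith) x n
  fin_cases k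
  · simpa [E, rw, ty] using H0
  · simpa [E, rw, ty] using main F1 F2 F3 F4 F5 F6 false (c := al) 0 ht0 ht hal.le (by linarith) x n
  · simpa [E, rw, ty] using main F1 F2 F3 F4 F5 F6 true (c := al) al ht0 ht hal.le (by linarith) x n
  · simpa [E, rw, ty] using main F1 F2 F3 F4 F5 F6 true (c := 2 * al) 0 ht0 ht (by linarith)
      le_rfl x n
  · -- type 4
    obtain ⟨⟨⟨a0, m0⟩, i0⟩, ⟨hA0, hm0, hE0⟩, hu⟩ := H0
    simp only at hm0 hE0
    have hEdef : ∀ i u, u ∈ E t 4 i ↔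
        ((i = (0, 0, 0, 0) ∧ ((u ∈ Eb true t al 0 i ∧ u ∉ Pc t) ∨ u - 1 ∈ Pc t)) ∨
          (i ≠ (0, 0, 0, 0) ∧ u ∈ Eb true t al 0 i)) := by
      intro i u
      by_cases hi : i = (0, 0, 0, 0)
      · simp [E, hi]
      · simp [E, hi]
    have hrw : ∀ i, rw 4 i = row true i := by intro i; simp [rw, ty]
    have huniq : ∀ (a : ℝ) (m : ℤ) (i : Ix), (a, m) ∈ AA t A0 A1 → m + row true i = n →
        x - a ∈ Eb true t al 0 i → a = a0 ∧ m = m0 ∧ i = i0 := by
      intro a m i h1 h2 h3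
      have := hu ((a, m), i) ⟨h1, h2, h3⟩
      simp only [Prod.mk.injEq] at this
      exact ⟨this.1.1, this.1.2, this.2⟩
    change ∃! q : (ℝ × ℤ) × Ix, q.1 ∈ AA t A0 A1 ∧ q.1.2 + rw 4 q.2 = n ∧ x - q.1.1 ∈ E t 4 q.2
    by_cases hcase : i0 = (0, 0, 0, 0) ∧ x - a0 ∈ Pc t
    · obtain ⟨hi0, hPc⟩ := hcase
      subst hi0
      refine ⟨((a0 - 1, m0), (0, 0, 0, 0)), ⟨?_, ?_, ?_⟩, ?_⟩
      · rw [← AA_per]; simpa using hA0
      · simp only [hrw]; exact hm0
      · simp only [hEdef]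
        refine Or.inl ⟨trivial, Or.inr ?_⟩
        rw [show x - (a0 - 1) - 1 = x - a0 by ring]
        exact hPc
      · rintro ⟨⟨a, m⟩, i⟩ ⟨h1, h2, h3⟩
        simp only [hrw] at h2
        simp only [hEdef] at h3
        rcases h3 with ⟨hi, (⟨h4, h5⟩ | h4)⟩ | ⟨hi, h4⟩
        · obtain ⟨e1, e2, e3⟩ := huniq a m i h1 h2 h4
          rw [e1] at h5
          exact absurd hPc h5
        · have h6 : x - (a + 1) ∈ Pc t := by rw [show x - (a + 1) = x - a - 1 by ring]; exact h4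
          obtain ⟨e1, e2, e3⟩ := huniq (a + 1) m i ((AA_per a m).2 h1) h2 (by rw [hi]; exact h6.1)
          have : a = a0 - 1 := by linarith
          rw [this, e2, hi]
        · obtain ⟨e1, e2, e3⟩ := huniq a m i h1 h2 h4
          exact absurd e3 hi
    · refine ⟨((a0, m0), i0), ⟨hA0, ?_, ?_⟩, ?_⟩
      · simp only [hrw]; exact hm0
      · simp only [hEdef]
        by_cases hi0 : i0 = (0, 0, 0, 0)
        · refine Or.inl ⟨hi0, Or.inl ⟨hE0, fun h => hcase ⟨hi0, h⟩⟩⟩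
        · exact Or.inr ⟨hi0, hE0⟩
      · rintro ⟨⟨a, m⟩, i⟩ ⟨h1, h2, h3⟩
        simp only [hrw] at h2
        simp only [hEdef] at h3
        rcases h3 with ⟨hi, (⟨h4, h5⟩ | h4)⟩ | ⟨hi, h4⟩
        · obtain ⟨e1, e2, e3⟩ := huniq a m i h1 h2 h4
          rw [e1, e2, e3]
        · have h6 : x - (a + 1) ∈ Pc t := by rw [show x - (a + 1) = x - a - 1 by ring]; exact h4
          obtain ⟨e1, e2, e3⟩ := huniq (a + 1) m i ((AA_per a m).2 h1) h2 (by rw [hi]; exact h6.1)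
          exact absurd ⟨e3.symm.trans hi, by rw [← e1]; exact h6⟩ hcase
        · obtain ⟨e1, e2, e3⟩ := huniq a m i h1 h2 h4
          rw [e1, e2, e3]

end Vale.Agent.P043.T2.H353
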